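import Mathlib
import Vale.Agent.P252.Defs

/-! Calculus rules for `pd` and `hess`, and the second derivative test at an interior maximum
(helper429). -/

open scoped ContDiff Topology
open Filter

namespace Vale.Agent.P252.H429

variable {n : ℕ} {f g : EuclideanSpace ℝ (Fin n) → ℝ} {x : EuclideanSpace ℝ (Fin n)}

/-! ### first order rules -/

lemma pd_congr (h : f =ᶠ[𝓝 x] g) (i : Fin n) : pd i f x = pd i g x := by
  unfold pd; rw [h.fderiv_eq]

lemma pd_add (hf : DifferentiableAt ℝ f x) (hg : DifferentiableAt ℝ g x) (i : Fin n) :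
    pd i (fun y => f y + g y) x = pd i f x + pd i g x := by
  unfold pd; rw [fderiv_fun_add hf hg]; rfl

lemma pd_sub (hf : DifferentiableAt ℝ f x) (hg : DifferentiableAt ℝ g x) (i : Fin n) :
    pd i (fun y => f y - g y) x = pd i f x - pd i g x := by
  unfold pd; rw [fderiv_fun_sub hf hg]; rfl

lemma pd_neg (i : Fin n) : pd i (fun y => - f y) x = - pd i f x := by
  unfold pd; rw [fderiv_fun_neg]; rfl

lemma pd_const (c : ℝ) (i : Fin n) : pd i (fun _ => c) x = 0 := by
  unfold pd; simp

lemma pd_const_mul (c : ℝ) (hf : DifferentiableAt ℝ f x) (i : Fin n) :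
    pd i (fun y => c * f y) x = c * pd i f x := by
  unfold pd; rw [fderiv_const_mul hf]; rfl

lemma pd_mul (hf : DifferentiableAt ℝ f x) (hg : DifferentiableAt ℝ g x) (i : Fin n) :
    pd i (fun y => f y * g y) x = pd i f x * g x + f x * pd i g x := by
  unfold pd; rw [fderiv_fun_mul hf hg]
  simp only [add_apply, smul_apply, smul_eq_mul]; ring

lemma pd_comp {φ : ℝ → ℝ} {c : ℝ} (hφ : HasDerivAt φ c (f x)) (hf : DifferentiableAt ℝ f x)
    (i : Fin n) : pd i (fun y => φ (f y)) x = c * pd i f x := by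
  unfold pd
  have h := (hφ.hasFDerivAt.comp x hf.hasFDerivAt).fderiv
  have h2 : fderiv ℝ (fun y => φ (f y)) x = fderiv ℝ (φ ∘ f) x := rfl
  rw [h2, h]; simp [mul_comm]

lemma pd_sum {ι : Type*} (s : Finset ι) {F : ι → EuclideanSpace ℝ (Fin n) → ℝ}
    (hF : ∀ k ∈ s, DifferentiableAt ℝ (F k) x) (i : Fin n) :
    pd i (fun y => ∑ k ∈ s, F k y) x = ∑ k ∈ s, pd i (F k) x := by
  unfold pd; rw [fderiv_fun_sum hF]; simp

lemma pd_coord (i j : Fin n) : pd i (fun y => y j) x = if i = j then 1 else 0 := by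
  unfold pd
  have h : HasFDerivAt (fun y : EuclideanSpace ℝ (Fin n) => y j)
      (EuclideanSpace.proj j : EuclideanSpace ℝ (Fin n) →L[ℝ] ℝ) x :=
    (EuclideanSpace.proj j : EuclideanSpace ℝ (Fin n) →L[ℝ] ℝ).hasFDerivAt
  rw [h.fderiv]
  simp [eq_comm]

lemma fderiv_apply_eq_sum (v : EuclideanSpace ℝ (Fin n)) :
    fderiv ℝ f x v = ∑ i, v i * pd i f x := by
  conv_lhs => rw [← (EuclideanSpace.basisFun (Fin n) ℝ).sum_repr v]
  simp [pd, map_sum]

/-! ### smoothness -/

lemma contDiffAt_pd {m k : WithTop ℕ∞} (hf : ContDiffAt ℝ k f x) (hmk : m + 1 ≤ k) (i : Fin n) :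
    ContDiffAt ℝ m (pd i f) x := by
  unfold pd
  exact (hf.fderiv_right (m := m) hmk).clm_apply contDiffAt_const

lemma hess_apply (i j : Fin n) : hess f x i j = pd i (pd j f) x := rfl

lemma hess_congr (h : f =ᶠ[𝓝 x] g) : hess f x = hess g x := by
  ext i j
  exact pd_congr (h.eventuallyEq_nhds.mono fun y hy => pd_congr hy j) i

lemma diff_pd (hf : ContDiffAt ℝ 2 f x) (i : Fin n) : DifferentiableAt ℝ (pd i f) x :=
  (contDiffAt_pd (m := 1) hf (by norm_num) i).differentiableAt (by simp)

lemma ev_diff (hf : ContDiffAt ℝ 2 f x) : ∀ᶠ y in 𝓝 x, DifferentiableAt ℝ f y := by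
  have h1 := hf.eventually (by simp)
  exact h1.mono fun y hy => hy.differentiableAt (by simp)

/-- symmetry of the Hessian -/
lemma hess_symm (hf : ContDiffAt ℝ 2 f x) (i j : Fin n) : hess f x i j = hess f x j i := by
  have h := hf.isSymmSndFDerivAt (by simp)
  have hd : DifferentiableAt ℝ (fderiv ℝ f) x :=
    (hf.fderiv_right (m := 1) (by norm_num)).differentiableAt (by simp)
  have key : ∀ a b : Fin n, hess f x a b =
      fderiv ℝ (fderiv ℝ f) x (EuclideanSpace.single a 1) (EuclideanSpace.single b 1) := by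
    intro a b
    rw [hess_apply]
    unfold pd
    rw [fderiv_clm_apply hd (differentiableAt_const _)]
    simp
  rw [key, key]
  exact h _ _

/-! ### second order rules -/

lemma hess_add (hf : ContDiffAt ℝ 2 f x) (hg : ContDiffAt ℝ 2 g x) (i j : Fin n) :
    hess (fun y => f y + g y) x i j = hess f x i j + hess g x i j := by
  rw [hess_apply, hess_apply, hess_apply, ← pd_add (diff_pd hf j) (diff_pd hg j)]
  refine pd_congr ?_ i
  filter_upwards [ev_diff hf, ev_diff hg] with y h1 h2
  exact pd_add h1 h2 j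

lemma hess_sub (hf : ContDiffAt ℝ 2 f x) (hg : ContDiffAt ℝ 2 g x) (i j : Fin n) :
    hess (fun y => f y - g y) x i j = hess f x i j - hess g x i j := by
  rw [hess_apply, hess_apply, hess_apply, ← pd_sub (diff_pd hf j) (diff_pd hg j)]
  refine pd_congr ?_ i
  filter_upwards [ev_diff hf, ev_diff hg] with y h1 h2
  exact pd_sub h1 h2 j

lemma hess_neg (i j : Fin n) :
    hess (fun y => - f y) x i j = - hess f x i j := by
  rw [hess_apply, hess_apply, ← pd_neg]
  refine pd_congr ?_ i
  exact Eventually.of_forall fun y => pd_neg j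

lemma hess_const_mul (c : ℝ) (hf : ContDiffAt ℝ 2 f x) (i j : Fin n) :
    hess (fun y => c * f y) x i j = c * hess f x i j := by
  rw [hess_apply, hess_apply, ← pd_const_mul c (diff_pd hf j)]
  refine pd_congr ?_ i
  filter_upwards [ev_diff hf] with y h1
  exact pd_const_mul c h1 j

lemma hess_mul (hf : ContDiffAt ℝ 2 f x) (hg : ContDiffAt ℝ 2 g x) (i j : Fin n) :
    hess (fun y => f y * g y) x i j =
      hess f x i j * g x + pd j f x * pd i g x + pd i f x * pd j g x + f x * hess g x i j := by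
  have hf1 := hf.differentiableAt (by simp)
  have hg1 := hg.differentiableAt (by simp)
  rw [hess_apply, hess_apply, hess_apply]
  have : pd i (pd j (fun y => f y * g y)) x =
      pd i (fun y => pd j f y * g y + f y * pd j g y) x := by
    refine pd_congr ?_ i
    filter_upwards [ev_diff hf, ev_diff hg] with y h1 h2
    exact pd_mul h1 h2 j
  rw [this, pd_add (f := fun y => pd j f y * g y) (g := fun y => f y * pd j g y)
    ((diff_pd hf j).mul hg1) (hf1.mul (diff_pd hg j)), pd_mul (diff_pd hf j) hg1,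
    pd_mul hf1 (diff_pd hg j)]
  ring

lemma hess_comp {φ φ' : ℝ → ℝ} {c : ℝ} (hφ : ∀ᶠ t in 𝓝 (f x), HasDerivAt φ (φ' t) t)
    (hφ' : HasDerivAt φ' c (f x)) (hf : ContDiffAt ℝ 2 f x) (i j : Fin n) :
    hess (fun y => φ (f y)) x i j = φ' (f x) * hess f x i j + c * pd i f x * pd j f x := by
  have hf1 := hf.differentiableAt (by simp)
  rw [hess_apply, hess_apply]
  have : pd i (pd j (fun y => φ (f y))) x = pd i (fun y => φ' (f y) * pd j f y) x := by
    refine pd_congr ?_ i
    filter_upwards [ev_diff hf, hf.continuousAt.eventually hφ] with y h1 h2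
    exact pd_comp h2 h1 j
  have hd : DifferentiableAt ℝ (fun y => φ' (f y)) x :=
    DifferentiableAt.comp x hφ'.differentiableAt hf1
  rw [this, pd_mul hd (diff_pd hf j), pd_comp hφ' hf1]
  ring

lemma hess_sum {ι : Type*} (s : Finset ι) {F : ι → EuclideanSpace ℝ (Fin n) → ℝ}
    (hF : ∀ k ∈ s, ContDiffAt ℝ 2 (F k) x) (i j : Fin n) :
    hess (fun y => ∑ k ∈ s, F k y) x i j = ∑ k ∈ s, hess (F k) x i j := by
  simp only [hess_apply]
  rw [← pd_sum s (fun k hk => diff_pd (hF k hk) j)]
  refine pd_congr ?_ i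
  have h : ∀ᶠ y in 𝓝 x, ∀ k ∈ s, DifferentiableAt ℝ (F k) y :=
    (Filter.eventually_all_finset s).2 fun k hk => ev_diff (hF k hk)
  filter_upwards [h] with y h1
  exact pd_sum s h1 j

lemma hess_coord (i j k : Fin n) : hess (fun y => y k) x i j = 0 := by
  rw [hess_apply]
  have : pd i (pd j (fun y : EuclideanSpace ℝ (Fin n) => y k)) x =
      pd i (fun _ => (if j = k then 1 else 0 : ℝ)) x :=
    pd_congr (Eventually.of_forall fun y => pd_coord j k) i
  rw [this, pd_const]

lemma contDiffAt_coord {m : WithTop ℕ∞} (k : Fin n) :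
    ContDiffAt ℝ m (fun y : EuclideanSpace ℝ (Fin n) => y k) x :=
  (EuclideanSpace.proj k : EuclideanSpace ℝ (Fin n) →L[ℝ] ℝ).contDiff.contDiffAt

/-! ### the second derivative test -/

lemma pd_eq_zero_of_isLocalMax (h : IsLocalMax f x) (i : Fin n) : pd i f x = 0 := by
  unfold pd; rw [h.fderiv_eq_zero]; rfl

/-- At an interior local maximum the Hessian form is nonpositive. -/
lemma hess_form_nonpos (hf : ContDiffAt ℝ 2 f x) (h : IsLocalMax f x) (v : Fin n → ℝ) :
    ∑ i, ∑ j, v i * v j * hess f x i j ≤ 0 := by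
  by_contra hcon
  push Not at hcon
  set w : EuclideanSpace ℝ (Fin n) := WithLp.toLp 2 v with hw
  set c : ℝ → EuclideanSpace ℝ (Fin n) := fun t => x + t • w with hc
  have hc0 : c 0 = x := by simp [hc]
  have hcd : ∀ t, HasDerivAt c w t := by
    intro t
    have := ((hasDerivAt_id t).smul_const w).const_add x
    simpa [hc] using this
  have hcc : Continuous c := by fun_prop
  have hev : ∀ᶠ t in 𝓝 (0:ℝ), DifferentiableAt ℝ f (c t) := by
    have := ev_diff hf
    rw [← hc0] at this
    exact hcc.continuousAt.eventually this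
  have hd1 : ∀ᶠ t in 𝓝 (0:ℝ), deriv (fun t => f (c t)) t = ∑ j, v j * pd j f (c t) := by
    filter_upwards [hev] with t ht
    have h1 : HasDerivAt (fun t => f (c t)) (fderiv ℝ f (c t) w) t :=
      ht.hasFDerivAt.comp_hasDerivAt t (hcd t)
    rw [h1.deriv, fderiv_apply_eq_sum]
  have hd2 : deriv (deriv fun t => f (c t)) 0 = ∑ i, ∑ j, v i * v j * hess f x i j := by
    rw [(show deriv (fun t => f (c t)) =ᶠ[𝓝 0] fun t => ∑ j, v j * pd j f (c t) from hd1).deriv_eq]
    have h2 : ∀ j, HasDerivAt (fun t => v j * pd j f (c t))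
        (v j * fderiv ℝ (pd j f) (c 0) w) 0 := by
      intro j
      have h3 : DifferentiableAt ℝ (pd j f) (c 0) := by rw [hc0]; exact diff_pd hf j
      exact (h3.hasFDerivAt.comp_hasDerivAt 0 (hcd 0)).const_mul _
    rw [(HasDerivAt.fun_sum fun j _ => h2 j).deriv, hc0]
    simp only [fderiv_apply_eq_sum, Finset.mul_sum]
    rw [Finset.sum_comm]
    refine Finset.sum_congr rfl fun i _ => Finset.sum_congr rfl fun j _ => ?_
    rw [hess_apply, hw]; simp only; ring
  have hlm : IsLocalMax (fun t => f (c t)) 0 := by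
    have : IsLocalMax f (c 0) := by rw [hc0]; exact h
    exact this.comp_continuous hcc.continuousAt
  have hd0 : deriv (fun t => f (c t)) 0 = 0 := hlm.deriv_eq_zero
  have hcont : ContinuousAt (fun t => f (c t)) 0 := by
    have h1 : ContinuousAt f (c 0) := by rw [hc0]; exact hf.continuousAt
    exact ContinuousAt.comp (f := c) h1 hcc.continuousAt
  have hmin := isLocalMin_of_deriv_deriv_pos (f := fun t => f (c t)) (x₀ := 0)
    (by rw [hd2]; exact hcon) hd0 hcont
  have hconst : (fun t => f (c t)) =ᶠ[𝓝 0] fun _ => f (c 0) := by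
    filter_upwards [hlm, hmin] with t h1 h2
    exact le_antisymm h1 h2
  have h5 : deriv (fun t => f (c t)) =ᶠ[𝓝 0] fun _ => (0:ℝ) := by
    filter_upwards [hconst.eventuallyEq_nhds] with t ht
    rw [ht.deriv_eq]; simp
  rw [h5.deriv_eq] at hd2
  simp at hd2
  linarith

/-- At an interior local maximum `∑ A_ij f_ij ≤ 0` for every positive semidefinite `A`. -/
theorem sum_mul_hess_nonpos {A : Matrix (Fin n) (Fin n) ℝ} (hA : A.PosSemidef)
    (hf : ContDiffAt ℝ 2 f x) (h : IsLocalMax f x) :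
    ∑ i, ∑ j, A i j * hess f x i j ≤ 0 := by
  obtain ⟨m, B, hB⟩ := Matrix.posSemidef_iff_eq_sum_vecMulVec.1 hA
  have hAij : ∀ i j, A i j = ∑ k, B k i * B k j := by
    intro i j
    rw [hB, Matrix.sum_apply]
    simp [Matrix.vecMulVec_apply]
  have : ∑ i, ∑ j, A i j * hess f x i j =
      ∑ k, ∑ i, ∑ j, B k i * B k j * hess f x i j := by
    simp only [hAij, Finset.sum_mul]
    rw [show (∑ k, ∑ i, ∑ j, B k i * B k j * hess f x i j) =
      ∑ i, ∑ k, ∑ j, B k i * B k j * hess f x i j from Finset.sum_comm]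
    exact Finset.sum_congr rfl fun i _ => Finset.sum_comm
  rw [this]
  exact Finset.sum_nonpos fun k _ => hess_form_nonpos hf h (fun i => B k i)

end Vale.Agent.P252.H429
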