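import Mathlib

/-! Linear algebra for the two bounds of `det D²u` (helper429). -/

open Matrix

namespace Vale.Agent.P252.H429

variable {n : ℕ}

/-- arithmetic-geometric mean inequality for a positive semidefinite matrix. -/
theorem det_le_trace_div_pow (hn : n ≠ 0) {A : Matrix (Fin n) (Fin n) ℝ} (hA : A.PosSemidef) :
    A.det ≤ (A.trace / n) ^ n := by
  have hH := hA.1
  have hdet : A.det = ∏ i, hH.eigenvalues i := by
    simpa using hH.det_eq_prod_eigenvalues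
  have htr : A.trace = ∑ i, hH.eigenvalues i := by
    simpa using hH.trace_eq_sum_eigenvalues
  have hnn : ∀ i, 0 ≤ hH.eigenvalues i := fun i => hA.eigenvalues_nonneg i
  have hn0 : (0:ℝ) < n := by positivity
  have h2 := Real.geom_mean_le_arith_mean_weighted Finset.univ (fun _ : Fin n => (1:ℝ) / n)
    hH.eigenvalues (fun _ _ => by positivity) (by simp; field_simp) (fun i _ => hnn i)
  rw [Real.finsetProd_rpow _ _ (fun i _ => hnn i), ← Finset.mul_sum, ← hdet, ← htr] at h2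
  have hdn : 0 ≤ A.det := hA.det_nonneg
  calc A.det = (A.det ^ ((1:ℝ) / n)) ^ n := by
        rw [← Real.rpow_natCast, ← Real.rpow_mul hdn]
        rw [one_div, inv_mul_cancel₀ hn0.ne', Real.rpow_one]
    _ ≤ (1 / n * A.trace) ^ n := pow_le_pow_left₀ (Real.rpow_nonneg hdn _) h2 n
    _ = (A.trace / n) ^ n := by ring

/-- `vᵀ A v ≤ |v|² tr A` for a positive semidefinite matrix. -/
theorem quad_le_trace {A : Matrix (Fin n) (Fin n) ℝ} (hA : A.PosSemidef) (v : Fin n → ℝ) :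
    v ⬝ᵥ (A *ᵥ v) ≤ (v ⬝ᵥ v) * A.trace := by
  obtain ⟨m, b, hb⟩ := Matrix.posSemidef_iff_eq_sum_vecMulVec.1 hA
  have hAij : ∀ i j, A i j = ∑ k, b k i * b k j := by
    intro i j
    rw [hb, Matrix.sum_apply]
    simp [Matrix.vecMulVec_apply]
  have h1 : v ⬝ᵥ (A *ᵥ v) = ∑ k, (∑ i, b k i * v i) ^ 2 := by
    simp only [dotProduct, mulVec, hAij, Finset.mul_sum, Finset.sum_mul, sq]
    rw [show (∑ k, ∑ i, ∑ j, b k j * v j * (b k i * v i)) =
      ∑ i, ∑ k, ∑ j, b k j * v j * (b k i * v i) from Finset.sum_comm]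
    refine Finset.sum_congr rfl fun i _ => ?_
    rw [Finset.sum_comm]
    refine Finset.sum_congr rfl fun k _ => Finset.sum_congr rfl fun j _ => ?_
    ring
  have h2 : A.trace = ∑ k, ∑ i, b k i ^ 2 := by
    simp only [trace, diag, hAij, sq]
    exact Finset.sum_comm
  rw [h1, h2, Finset.mul_sum]
  refine Finset.sum_le_sum fun k _ => ?_
  have h3 := Finset.sum_mul_sq_le_sq_mul_sq Finset.univ (b k) v
  have h4 : v ⬝ᵥ v = ∑ i, v i ^ 2 := by simp [dotProduct, sq]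
  rw [h4, mul_comm]; exact h3

lemma quad_nonneg {A : Matrix (Fin n) (Fin n) ℝ} (hA : A.PosSemidef) (v : Fin n → ℝ) :
    0 ≤ v ⬝ᵥ (A *ᵥ v) := by
  simpa using hA.dotProduct_mulVec_nonneg v

lemma symm_apply {A : Matrix (Fin n) (Fin n) ℝ} (hA : A.IsHermitian) (i j : Fin n) :
    A i j = A j i := by
  simpa using (hA.apply j i)

lemma dot_mulVec_comm {A : Matrix (Fin n) (Fin n) ℝ} (hA : A.IsHermitian) (v w : Fin n → ℝ) :
    v ⬝ᵥ (A *ᵥ w) = w ⬝ᵥ (A *ᵥ v) := by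
  rw [dotProduct_mulVec, ← mulVec_transpose, dotProduct_comm]
  congr 2

lemma inv_mulVec_mulVec {G : Matrix (Fin n) (Fin n) ℝ} (hG : G.PosDef) (v : Fin n → ℝ) :
    G⁻¹ *ᵥ (G *ᵥ v) = v := by
  rw [mulVec_mulVec, nonsing_inv_mul _ ((Matrix.isUnit_iff_isUnit_det _).1 hG.isUnit), one_mulVec]

lemma mulVec_inv_mulVec {G : Matrix (Fin n) (Fin n) ℝ} (hG : G.PosDef) (v : Fin n → ℝ) :
    G *ᵥ (G⁻¹ *ᵥ v) = v := by
  rw [mulVec_mulVec, mul_nonsing_inv _ ((Matrix.isUnit_iff_isUnit_det _).1 hG.isUnit), one_mulVec]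

/-- Pointwise algebra at the maximum point for the upper bound of `det D²u`:
`l = β p / s - γ G p` is the first order condition, `hH` the second order one. -/
theorem upper_algebra (hn : 2 ≤ n) {G : Matrix (Fin n) (Fin n) ℝ} (hG : G.PosDef)
    {p l : Fin n → ℝ} {s K : ℝ} (hs : 0 < s) (hK : 0 < K) (hp : p ⬝ᵥ p ≤ K ^ 2)
    (hl : l = (n / s) • p - (((n:ℝ) + 2) / (2 * K ^ 2)) • (G *ᵥ p))
    (hH : ((n:ℝ) + 1) / (n + 2) * (l ⬝ᵥ (G⁻¹ *ᵥ l)) - n * n / s - n * (p ⬝ᵥ (G⁻¹ *ᵥ p)) / s ^ 2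
      + (((n:ℝ) + 2) / (2 * K ^ 2)) * (p ⬝ᵥ l + G.trace) ≤ 0) :
    G.det ≤ (6 * K ^ 2 / s) ^ n := by
  set γ : ℝ := ((n:ℝ) + 2) / (2 * K ^ 2) with hγ
  set A := p ⬝ᵥ (G⁻¹ *ᵥ p) with hA
  set Q := p ⬝ᵥ (G *ᵥ p) with hQ
  set N := p ⬝ᵥ p with hN
  set Δ := G.trace with hΔ
  have hn2 : (2:ℝ) ≤ n := by exact_mod_cast hn
  have hPi : (G⁻¹).PosDef := hG.inv
  have hγ0 : 0 < γ := by positivity
  have hA0 : 0 ≤ A := quad_nonneg hPi.posSemidef p
  have hN0 : 0 ≤ N := by rw [hN, dotProduct]; exact Finset.sum_nonneg fun i _ => mul_self_nonneg _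
  have hΔ0 : 0 ≤ Δ := hG.posSemidef.trace_nonneg
  have hQ1 : Q ≤ N * Δ := quad_le_trace hG.posSemidef p
  -- computation of `lᵀ P l` and `p·l`
  have hll : l ⬝ᵥ (G⁻¹ *ᵥ l) = (n / s) ^ 2 * A - 2 * (n / s) * γ * N + γ ^ 2 * Q := by
    have e1 : G⁻¹ *ᵥ l = (n / s : ℝ) • (G⁻¹ *ᵥ p) - γ • p := by
      rw [hl, mulVec_sub, mulVec_smul, mulVec_smul, inv_mulVec_mulVec hG]
    have e2 : (G *ᵥ p) ⬝ᵥ (G⁻¹ *ᵥ p) = N := by
      rw [dot_mulVec_comm hPi.1, inv_mulVec_mulVec hG]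
    rw [e1, hl]
    simp only [sub_dotProduct, dotProduct_sub, smul_dotProduct, dotProduct_smul, smul_eq_mul]
    rw [e2, dotProduct_comm (G *ᵥ p) p]
    ring
  have hpl : p ⬝ᵥ l = (n / s) * N - γ * Q := by
    rw [hl]; simp only [dotProduct_sub, dotProduct_smul, smul_eq_mul]; rfl
  rw [hll, hpl] at hH
  -- first bound of the trace
  have hγN : γ * N ≤ ((n:ℝ) + 2) / 2 := by
    have : γ * N ≤ γ * K ^ 2 := mul_le_mul_of_nonneg_left hp hγ0.le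
    have h2 : γ * K ^ 2 = ((n:ℝ) + 2) / 2 := by rw [hγ]; field_simp
    linarith
  set θ : ℝ := ((n:ℝ) + 1) / (n + 2) with hθ
  have hθ1 : 1 - θ = 1 / ((n:ℝ) + 2) := by rw [hθ]; field_simp; ring
  have hθn : 0 ≤ θ * n ^ 2 - n := by
    have : θ * (n:ℝ) ^ 2 - n = n * ((n:ℝ) ^ 2 - 2) / (n + 2) := by
      rw [hθ]; field_simp; ring
    rw [this]
    apply div_nonneg
    · apply mul_nonneg (by linarith); nlinarith
    · linarith
  have hθlt : θ < 1 := by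
    have : 0 < 1 - θ := by rw [hθ1]; positivity
    linarith
  have hkey : γ * Δ ≤ (1 - θ) * γ ^ 2 * Q + n ^ 2 / s + (2 * θ - 1) * n * γ * N / s := by
    have e : θ * ((n / s) ^ 2 * A - 2 * (n / s) * γ * N + γ ^ 2 * Q) - n * n / s - n * A / s ^ 2
        + γ * ((n / s) * N - γ * Q + Δ) = (θ * n ^ 2 - n) * A / s ^ 2 +
        (γ * Δ - ((1 - θ) * γ ^ 2 * Q + n ^ 2 / s + (2 * θ - 1) * n * γ * N / s)) := by
      field_simp; ring
    rw [e] at hH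
    have h3 : 0 ≤ (θ * n ^ 2 - n) * A / s ^ 2 := by positivity
    linarith
  have h4 : (1 - θ) * γ ^ 2 * Q ≤ γ * Δ / 2 := by
    have a1 : (1 - θ) * γ ^ 2 * Q ≤ (1 - θ) * γ ^ 2 * (N * Δ) :=
      mul_le_mul_of_nonneg_left hQ1 (by have : 0 ≤ 1 - θ := by linarith
                                        positivity)
    have a2 : (1 - θ) * γ ^ 2 * (N * Δ) = (1 - θ) * (γ * N) * (γ * Δ) := by ring
    have a3 : (1 - θ) * (γ * N) ≤ 1 / 2 := by
      calc (1 - θ) * (γ * N) ≤ (1 - θ) * (((n:ℝ) + 2) / 2) :=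
            mul_le_mul_of_nonneg_left hγN (by linarith)
        _ = 1 / 2 := by rw [hθ1]; field_simp
    have a4 : (1 - θ) * (γ * N) * (γ * Δ) ≤ 1 / 2 * (γ * Δ) :=
      mul_le_mul_of_nonneg_right a3 (by positivity)
    linarith
  have h5 : (2 * θ - 1) * n * γ * N / s ≤ n * (((n:ℝ) + 2) / 2) / s := by
    apply div_le_div_of_nonneg_right _ hs.le
    have b1 : (2 * θ - 1) * n * γ * N = (2 * θ - 1) * (n * (γ * N)) := by ring
    have b2 : 0 ≤ (n:ℝ) * (γ * N) := by positivity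
    have b3 : (2 * θ - 1) * (n * (γ * N)) ≤ 1 * (n * (γ * N)) :=
      mul_le_mul_of_nonneg_right (by linarith) b2
    have b4 : (n:ℝ) * (γ * N) ≤ n * (((n:ℝ) + 2) / 2) :=
      mul_le_mul_of_nonneg_left hγN (by linarith)
    linarith
  have h6 : Δ ≤ 6 * n * K ^ 2 / s := by
    have c1 : γ * Δ / 2 ≤ (n:ℝ) ^ 2 / s + n * (((n:ℝ) + 2) / 2) / s := by linarith
    have c2 : γ * Δ / 2 ≤ γ / 2 * (6 * n * K ^ 2 / s) := by
      refine c1.trans ?_
      have e1 : (n:ℝ) ^ 2 / s + n * (((n:ℝ) + 2) / 2) / s = n * (3 * n + 2) / 2 / s := by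
        field_simp; ring
      have e2 : γ / 2 * (6 * n * K ^ 2 / s) = (n * (3 * (n + 2)) / 2) / s := by
        rw [hγ]; field_simp; ring
      rw [e1, e2]
      apply div_le_div_of_nonneg_right _ hs.le
      nlinarith
    have c3 : γ / 2 * Δ ≤ γ / 2 * (6 * n * K ^ 2 / s) := by linarith
    exact le_of_mul_le_mul_left c3 (by positivity)
  have hn0 : n ≠ 0 := by omega
  calc G.det ≤ (Δ / n) ^ n := det_le_trace_div_pow hn0 hG.posSemidef
    _ ≤ (6 * K ^ 2 / s) ^ n := by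
        apply pow_le_pow_left₀ (by positivity)
        rw [div_le_iff₀ (by linarith)]
        calc Δ ≤ 6 * n * K ^ 2 / s := h6
          _ = 6 * K ^ 2 / s * n := by ring

/-- Pointwise algebra at the maximum point for the lower bound of `det D²u`. -/
theorem lower_algebra (hn : n ≠ 0) {G : Matrix (Fin n) (Fin n) ℝ} (hG : G.PosDef)
    {y l : Fin n → ℝ} {s R : ℝ} (hs : 0 < s) (hR : 0 < R) (hy : y ⬝ᵥ y ≤ R ^ 2)
    (hl : l = (1 / (2 * R ^ 2)) • y - (((n:ℝ) + 2) / s) • (G *ᵥ y))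
    (hH : - (((n:ℝ) + 1) / (n + 2) * (l ⬝ᵥ (G⁻¹ *ᵥ l)))
      - ((n:ℝ) + 2) * (n + y ⬝ᵥ l) / s - ((n:ℝ) + 2) * (y ⬝ᵥ (G *ᵥ y)) / s ^ 2
      + (1 / (2 * R ^ 2)) * (G⁻¹).trace ≤ 0) :
    (G.det)⁻¹ ≤ (4 * ((n:ℝ) + 2) * R ^ 2 / s) ^ n := by
  set γ : ℝ := 1 / (2 * R ^ 2) with hγ
  set A := y ⬝ᵥ (G⁻¹ *ᵥ y) with hA
  set Q := y ⬝ᵥ (G *ᵥ y) with hQ
  set N := y ⬝ᵥ y with hN
  set T := (G⁻¹).trace with hT
  have hn1 : (0:ℝ) < n := by positivity
  have hPi : (G⁻¹).PosDef := hG.inv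
  have hγ0 : 0 < γ := by positivity
  have hA0 : 0 ≤ A := quad_nonneg hPi.posSemidef y
  have hN0 : 0 ≤ N := by rw [hN, dotProduct]; exact Finset.sum_nonneg fun i _ => mul_self_nonneg _
  have hT0 : 0 ≤ T := hPi.posSemidef.trace_nonneg
  have hA1 : A ≤ N * T := quad_le_trace hPi.posSemidef y
  have hll : l ⬝ᵥ (G⁻¹ *ᵥ l) = γ ^ 2 * A - 2 * γ * (((n:ℝ) + 2) / s) * N +
      (((n:ℝ) + 2) / s) ^ 2 * Q := by
    have e1 : G⁻¹ *ᵥ l = γ • (G⁻¹ *ᵥ y) - (((n:ℝ) + 2) / s) • y := by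
      rw [hl, mulVec_sub, mulVec_smul, mulVec_smul, inv_mulVec_mulVec hG]
    have e2 : (G *ᵥ y) ⬝ᵥ (G⁻¹ *ᵥ y) = N := by
      rw [dot_mulVec_comm hPi.1, inv_mulVec_mulVec hG]
    rw [e1, hl]
    simp only [sub_dotProduct, dotProduct_sub, smul_dotProduct, dotProduct_smul, smul_eq_mul]
    rw [e2, dotProduct_comm (G *ᵥ y) y]
    ring
  have hyl : y ⬝ᵥ l = γ * N - (((n:ℝ) + 2) / s) * Q := by
    rw [hl]; simp only [dotProduct_sub, dotProduct_smul, smul_eq_mul]; rfl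
  rw [hll, hyl] at hH
  set θ : ℝ := ((n:ℝ) + 1) / (n + 2) with hθ
  have hθ0 : 0 < θ := by positivity
  have hθ1 : 1 - θ = 1 / ((n:ℝ) + 2) := by rw [hθ]; field_simp; ring
  have hθlt : θ < 1 := by
    have : 0 < 1 - θ := by rw [hθ1]; positivity
    linarith
  have hθ2 : 0 ≤ 2 * θ - 1 := by
    have : 2 * θ - 1 = n / ((n:ℝ) + 2) := by rw [hθ]; field_simp; ring
    rw [this]; positivity
  have hγN : γ * N ≤ 1 / 2 := by
    have h1 : γ * N ≤ γ * R ^ 2 := mul_le_mul_of_nonneg_left hy hγ0.le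
    have h2 : γ * R ^ 2 = 1 / 2 := by rw [hγ]; field_simp
    linarith
  have hkey : γ * T ≤ θ * γ ^ 2 * A + ((n:ℝ) + 2) * n / s := by
    have e : - (θ * (γ ^ 2 * A - 2 * γ * (((n:ℝ) + 2) / s) * N + (((n:ℝ) + 2) / s) ^ 2 * Q))
      - ((n:ℝ) + 2) * (n + (γ * N - (((n:ℝ) + 2) / s) * Q)) / s - ((n:ℝ) + 2) * Q / s ^ 2
      + γ * T = (2 * θ - 1) * (γ * ((n:ℝ) + 2) / s * N) +
        (((1 - θ) * ((n:ℝ) + 2) - 1) * (((n:ℝ) + 2) * Q / s ^ 2)) +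
        (γ * T - (θ * γ ^ 2 * A + ((n:ℝ) + 2) * n / s)) := by
      field_simp; ring
    rw [e] at hH
    have h3 : (1 - θ) * ((n:ℝ) + 2) - 1 = 0 := by rw [hθ1]; field_simp; ring
    rw [h3] at hH
    have h4 : 0 ≤ (2 * θ - 1) * (γ * ((n:ℝ) + 2) / s * N) := by positivity
    linarith
  have h4 : θ * γ ^ 2 * A ≤ γ * T / 2 := by
    have a1 : θ * γ ^ 2 * A ≤ 1 * γ ^ 2 * (N * T) := by
      apply mul_le_mul _ hA1 hA0 (by positivity)
      exact mul_le_mul_of_nonneg_right hθlt.le (by positivity)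
    have a2 : 1 * γ ^ 2 * (N * T) = (γ * N) * (γ * T) := by ring
    have a3 : (γ * N) * (γ * T) ≤ 1 / 2 * (γ * T) :=
      mul_le_mul_of_nonneg_right hγN (by positivity)
    linarith
  have h6 : T ≤ 4 * ((n:ℝ) + 2) * n * R ^ 2 / s := by
    have c3 : γ / 2 * T ≤ γ / 2 * (4 * ((n:ℝ) + 2) * n * R ^ 2 / s) := by
      have e2 : γ / 2 * (4 * ((n:ℝ) + 2) * n * R ^ 2 / s) = ((n:ℝ) + 2) * n / s := by
        rw [hγ]; field_simp; ring
      rw [e2]; linarith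
    exact le_of_mul_le_mul_left c3 (by positivity)
  have hdet : (G.det)⁻¹ = (G⁻¹).det := by
    rw [det_nonsing_inv, Ring.inverse_eq_inv']
  rw [hdet]
  calc (G⁻¹).det ≤ (T / n) ^ n := det_le_trace_div_pow hn hPi.posSemidef
    _ ≤ (4 * ((n:ℝ) + 2) * R ^ 2 / s) ^ n := by
        apply pow_le_pow_left₀ (by positivity)
        rw [div_le_iff₀ hn1]
        calc T ≤ 4 * ((n:ℝ) + 2) * n * R ^ 2 / s := h6
          _ = 4 * ((n:ℝ) + 2) * R ^ 2 / s * n := by ring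

end Vale.Agent.P252.H429
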