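import Mathlib
import Vale.Agent.P252.R.Spec
import Vale.Agent.P252.H392.Lop
import Vale.Agent.P252.H429.Base
import Vale.Agent.P252.H429.LinAlg

/-! The two bounds of `det D²u` by the maximum principle: `Stmt_detUpper`, `Stmt_detLower`
(helper429). -/

open scoped ContDiff Topology
open Filter Matrix

namespace Vale.Agent.P252.H429

variable {n : ℕ}

/-- Existence of the interior maximum point used in both bounds. -/
lemma exists_max {E : Type*} [TopologicalSpace E] {C : Set E} (hC : IsCompact C) {g G : E → ℝ}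
    (hg : ContinuousOn g C) (hG : ContinuousOn G C) (hGpos : ∀ x ∈ C, 0 < G x) {m : ℕ}
    (hm : m ≠ 0) (hb : ∀ x ∈ C, 0 < g x → x ∈ interior C) {x0 : E} (hx0 : x0 ∈ C)
    (hgx0 : 0 < g x0) :
    ∃ xm ∈ interior C, 0 < g xm ∧
      IsLocalMax (fun x => Real.log (G x) + m * Real.log (g x)) xm ∧
      G x0 * g x0 ^ m ≤ G xm * g xm ^ m := by
  have hF : ContinuousOn (fun x => G x * (max (g x) 0) ^ m) C :=
    hG.mul ((hg.sup continuousOn_const).pow m)
  obtain ⟨xm, hxm, hmax⟩ := hC.exists_isMaxOn ⟨x0, hx0⟩ hF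
  have h0 : 0 < G x0 * (max (g x0) 0) ^ m := by
    rw [max_eq_left hgx0.le]
    exact mul_pos (hGpos _ hx0) (pow_pos hgx0 _)
  have h1 : 0 < G xm * (max (g xm) 0) ^ m := lt_of_lt_of_le h0 (hmax hx0)
  have h2 : 0 < g xm := by
    by_contra hcon
    push Not at hcon
    rw [max_eq_right hcon, zero_pow hm, mul_zero] at h1
    exact lt_irrefl _ h1
  have hint := hb xm hxm h2
  refine ⟨xm, hint, h2, ?_, ?_⟩
  · have hn : C ∈ 𝓝 xm := mem_interior_iff_mem_nhds.1 hint
    have hcg : ContinuousAt g xm := (hg.continuousAt hn)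
    filter_upwards [hn, hcg.eventually (lt_mem_nhds h2)] with x hxC hgx
    have h3 : G x * (max (g x) 0) ^ m ≤ G xm * (max (g xm) 0) ^ m := hmax hxC
    rw [max_eq_left hgx.le, max_eq_left h2.le] at h3
    have h4 := Real.log_le_log (mul_pos (hGpos _ hxC) (pow_pos hgx m)) h3
    rwa [Real.log_mul (hGpos _ hxC).ne' (pow_pos hgx m).ne',
      Real.log_mul (hGpos _ hxm).ne' (pow_pos h2 m).ne', Real.log_pow, Real.log_pow] at h4
  · have h3 : G x0 * (max (g x0) 0) ^ m ≤ G xm * (max (g xm) 0) ^ m := hmax hx0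
    rwa [max_eq_left hgx0.le, max_eq_left h2.le] at h3

lemma ip_eq_dot (u : EuclideanSpace ℝ (Fin n) → ℝ) (x : EuclideanSpace ℝ (Fin n))
    (a b : Fin n → ℝ) : C.ip u x a b = a ⬝ᵥ ((hess u x)⁻¹ *ᵥ b) := by
  unfold C.ip dotProduct Matrix.mulVec dotProduct
  simp only [Finset.mul_sum]
  refine Finset.sum_congr rfl fun i _ => Finset.sum_congr rfl fun j _ => ?_
  ring

lemma Lo_sum {u : EuclideanSpace ℝ (Fin n) → ℝ} {x : EuclideanSpace ℝ (Fin n)} {ι : Type*}
    (s : Finset ι) {F : ι → EuclideanSpace ℝ (Fin n) → ℝ} (hF : ∀ k ∈ s, C.Sm (F k) x) :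
    C.Lo u (fun y => ∑ k ∈ s, F k y) x = ∑ k ∈ s, C.Lo u (F k) x := by
  unfold C.Lo
  simp only [hess_sum s (fun k hk => (hF k hk).of_le (C.nat_le_infty 2)), Finset.mul_sum]
  rw [show (∑ k ∈ s, ∑ i, ∑ j, (hess u x)⁻¹ i j * hess (F k) x i j) =
    ∑ i, ∑ k ∈ s, ∑ j, (hess u x)⁻¹ i j * hess (F k) x i j from Finset.sum_comm]
  exact Finset.sum_congr rfl fun i _ => Finset.sum_comm

lemma Lo_nonpos {u H : EuclideanSpace ℝ (Fin n) → ℝ} {x : EuclideanSpace ℝ (Fin n)}
    (hpos : (hess u x).PosDef) (hH : C.Sm H x) (hmax : IsLocalMax H x) : C.Lo u H x ≤ 0 :=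
  sum_mul_hess_nonpos hpos.inv.posSemidef (hH.of_le (C.nat_le_infty 2)) hmax

/-- `⟨∇u_k, ∇u_k⟩ = u_kk`. -/
lemma ip_gr_pd {u : EuclideanSpace ℝ (Fin n) → ℝ} {x : EuclideanSpace ℝ (Fin n)}
    (hu : C.Sm u x) (hd : (hess u x).det ≠ 0) (k : Fin n) :
    C.ip u x (C.gr (pd k u) x) (C.gr (pd k u) x) = hess u x k k := by
  unfold C.ip
  have h : ∀ j, C.gr (pd k u) x j = hess u x k j := fun j => C.hess_symm hu j k
  have h1 : ∀ i, ∑ j, (hess u x)⁻¹ i j * C.gr (pd k u) x i * C.gr (pd k u) x j =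
      hess u x k i * ∑ j, (hess u x)⁻¹ i j * hess u x j k := by
    intro i
    rw [Finset.mul_sum]
    refine Finset.sum_congr rfl fun j _ => ?_
    rw [h, h, C.hess_symm hu j k]; ring
  simp only [h1, C.inv_mul_apply hd]
  simp

/-- Second order condition for the upper bound. -/
lemma upper_pointwise {u : EuclideanSpace ℝ (Fin n) → ℝ} {x : EuclideanSpace ℝ (Fin n)}
    (hn : 2 ≤ n) (hu : C.Sm u x) (hpos : (hess u x).PosDef)
    (ham : C.Lo u (C.ell u) x = ((n : ℝ) + 1) / ((n : ℝ) + 2) *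
      C.ip u x (C.gr (C.ell u) x) (C.gr (C.ell u) x))
    {s K : ℝ} (hs : 0 < s - u x) (hK : 0 < K) (hp : ∑ i, pd i u x ^ 2 ≤ K ^ 2)
    (hmax : IsLocalMax (fun y => (C.ell u y + (((n:ℝ) + 2) / (2 * K ^ 2)) / 2 *
      ∑ k, pd k u y * pd k u y) + n * Real.log (s - u y)) x) :
    (hess u x).det ≤ (6 * K ^ 2 / (s - u x)) ^ n := by
  have hd : (hess u x).det ≠ 0 := hpos.det_pos.ne'
  set γ : ℝ := ((n:ℝ) + 2) / (2 * K ^ 2) with hγ
  have hell : C.Sm (C.ell u) x := C.sm_ell hu hd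
  have hsq : ∀ k ∈ (Finset.univ : Finset (Fin n)), C.Sm (fun y => pd k u y * pd k u y) x :=
    fun k _ => (hu.pd k).mul (hu.pd k)
  have hsum : C.Sm (fun y => ∑ k, pd k u y * pd k u y) x := ContDiffAt.sum hsq
  have hsu : C.Sm (fun y => s - u y) x := contDiffAt_const.sub hu
  have hlog : C.Sm (fun y => Real.log (s - u y)) x := hsu.log hs.ne'
  have hcs : C.Sm (fun y => γ / 2 * ∑ k, pd k u y * pd k u y) x := contDiffAt_const.mul hsum
  have h1 : C.Sm (fun y => C.ell u y + γ / 2 * ∑ k, pd k u y * pd k u y) x :=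
    hell.add hcs
  have h2 : C.Sm (fun y => n * Real.log (s - u y)) x := contDiffAt_const.mul hlog
  -- second order
  have hLo := Lo_nonpos hpos (h1.add h2) hmax
  have hLsu : C.Lo u (fun y => s - u y) x = - n := by
    rw [C.Lo_sub (f := fun _ => s) contDiffAt_const hu, C.Lo_const, C.Lo_self hu hd]; ring
  have hgsu : C.gr (fun y => s - u y) x = - C.gr u x := by
    funext i
    simp only [C.gr_apply, Pi.neg_apply]
    rw [C.pd_sub i (differentiableAt_const s) hu.da, C.pd_const]; ring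
  have hLsq : ∀ k ∈ (Finset.univ : Finset (Fin n)),
      C.Lo u (fun y => pd k u y * pd k u y) x =
      2 * (pd k u x * pd k (C.ell u) x) + 2 * hess u x k k := by
    intro k _
    rw [C.Lo_mul hu (hu.pd k) (hu.pd k), C.Lo_pd hu hd, ip_gr_pd hu hd]; ring
  have hLo2 : C.Lo u (fun y => (C.ell u y + γ / 2 * ∑ k, pd k u y * pd k u y) +
      n * Real.log (s - u y)) x = ((n:ℝ) + 1) / (n + 2) *
        C.ip u x (C.gr (C.ell u) x) (C.gr (C.ell u) x) +
      γ * (∑ k, pd k u x * pd k (C.ell u) x + ∑ k, hess u x k k) +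
      n * (- n / (s - u x) - C.ip u x (C.gr u x) (C.gr u x) / (s - u x) ^ 2) := by
    rw [C.Lo_add h1 h2, C.Lo_add hell hcs, C.Lo_const_mul _ hsum,
      C.Lo_const_mul _ hlog, Lo_sum _ hsq, Finset.sum_congr rfl hLsq, ham,
      C.Lo_log hsu hs.ne', hLsu, hgsu, C.ip_neg_left, C.ip_neg_right, neg_neg,
      Finset.sum_add_distrib, ← Finset.mul_sum, ← Finset.mul_sum]
    ring
  rw [hLo2] at hLo
  -- first order
  have hgrad : ∀ i, pd i (C.ell u) x + γ * ∑ k, hess u x i k * pd k u x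
      - n * pd i u x / (s - u x) = 0 := by
    intro i
    have h0 := pd_eq_zero_of_isLocalMax hmax i
    rw [C.pd_add i h1.da h2.da, C.pd_add i hell.da hcs.da,
      C.pd_const_mul i _ hsum.da, C.pd_const_mul i _ hlog.da,
      C.pd_sum _ i (fun k hk => (hsq k hk).da),
      C.pd_comp i (Real.hasDerivAt_log hs.ne') hsu.da,
      C.pd_sub i (differentiableAt_const s) hu.da, C.pd_const] at h0
    have h3 : ∀ k, pd i (fun y => pd k u y * pd k u y) x = 2 * (hess u x i k * pd k u x) := by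
      intro k
      rw [C.pd_mul i (hu.pd k).da (hu.pd k).da, ← C.hess_apply]; ring
    simp only [h3, ← Finset.mul_sum] at h0
    rw [← h0]; field_simp; ring
  refine upper_algebra hn hpos (p := C.gr u x) (l := C.gr (C.ell u) x) hs hK ?_ ?_ ?_
  · refine le_of_eq_of_le ?_ hp
    simp [dotProduct, C.gr_apply, sq]
  · funext i
    have h3 := hgrad i
    simp only [C.gr_apply, Pi.sub_apply, Pi.smul_apply, smul_eq_mul, mulVec, dotProduct]
    have h4 : (n:ℝ) / (s - u x) * pd i u x = n * pd i u x / (s - u x) := by ring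
    rw [h4]
    linarith
  · rw [ip_eq_dot, ip_eq_dot] at hLo
    have e1 : C.gr u x ⬝ᵥ C.gr (C.ell u) x = ∑ k, pd k u x * pd k (C.ell u) x := rfl
    have e2 : (hess u x).trace = ∑ k, hess u x k k := rfl
    rw [e1, e2]
    refine le_of_eq_of_le ?_ hLo
    ring

/-- The Legendre type function `x·Du - u`. -/
noncomputable def psi (u : EuclideanSpace ℝ (Fin n) → ℝ) (x : EuclideanSpace ℝ (Fin n)) : ℝ :=
  ∑ k, x k * pd k u x - u x

section psi

variable {u : EuclideanSpace ℝ (Fin n) → ℝ} {x : EuclideanSpace ℝ (Fin n)}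

lemma sm_mul_pd (hu : C.Sm u x) (k : Fin n) :
    C.Sm (fun y : EuclideanSpace ℝ (Fin n) => y k * pd k u y) x :=
  (C.sm_coord k x).mul (hu.pd k)

lemma sm_sum_mul_pd (hu : C.Sm u x) :
    C.Sm (fun y : EuclideanSpace ℝ (Fin n) => ∑ k, y k * pd k u y) x :=
  ContDiffAt.sum fun k _ => sm_mul_pd hu k

lemma sm_psi (hu : C.Sm u x) : C.Sm (psi u) x := (sm_sum_mul_pd hu).sub hu

lemma gr_psi (hu : C.Sm u x) : C.gr (psi u) x = (hess u x) *ᵥ (fun k => x k) := by
  funext i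
  rw [C.gr_apply]
  unfold psi
  rw [C.pd_sub i (sm_sum_mul_pd hu).da hu.da, C.pd_sum _ i (fun k _ => (sm_mul_pd hu k).da)]
  have h : ∀ k, pd i (fun y : EuclideanSpace ℝ (Fin n) => y k * pd k u y) x =
      (if i = k then pd k u x else 0) + hess u x i k * x k := by
    intro k
    rw [C.pd_mul i (C.sm_coord k x).da (hu.pd k).da, C.pd_coord, ← C.hess_apply]
    split_ifs <;> ring
  simp only [h, Finset.sum_add_distrib]
  simp [mulVec, dotProduct]

lemma ip_gr_coord (k : Fin n) (b : Fin n → ℝ) :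
    C.ip u x (C.gr (fun y : EuclideanSpace ℝ (Fin n) => y k) x) b =
      ∑ j, (hess u x)⁻¹ k j * b j := by
  unfold C.ip
  simp only [C.gr_apply, C.pd_coord]
  rw [Finset.sum_eq_single k]
  · simp
  · intro i _ hik
    simp [hik]
  · simp

lemma Lo_psi (hu : C.Sm u x) (hd : (hess u x).det ≠ 0) :
    C.Lo u (psi u) x = n + ∑ k, x k * pd k (C.ell u) x := by
  unfold psi
  rw [C.Lo_sub (sm_sum_mul_pd hu) hu, Lo_sum _ (fun k _ => sm_mul_pd hu k), C.Lo_self hu hd]
  have h : ∀ k, C.Lo u (fun y : EuclideanSpace ℝ (Fin n) => y k * pd k u y) x =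
      x k * pd k (C.ell u) x + 2 := by
    intro k
    rw [C.Lo_mul hu (C.sm_coord k x) (hu.pd k), C.Lo_coord, C.Lo_pd hu hd, ip_gr_coord]
    have h1 : ∑ j, (hess u x)⁻¹ k j * C.gr (pd k u) x j = 1 := by
      have h2 := C.inv_mul_apply hd k k
      rw [if_pos rfl] at h2
      rw [← h2]
      exact Finset.sum_congr rfl fun j _ => rfl
    rw [h1]; ring
  simp only [h, Finset.sum_add_distrib]
  simp
  ring

/-- Second order condition for the lower bound. -/
lemma lower_pointwise (hn : n ≠ 0) (hu : C.Sm u x) (hpos : (hess u x).PosDef)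
    (ham : C.Lo u (C.ell u) x = ((n : ℝ) + 1) / ((n : ℝ) + 2) *
      C.ip u x (C.gr (C.ell u) x) (C.gr (C.ell u) x))
    {s R : ℝ} (hs : 0 < s - psi u x) (hR : 0 < R) (hx : ∑ i, x i ^ 2 ≤ R ^ 2)
    (hmax : IsLocalMax (fun y : EuclideanSpace ℝ (Fin n) =>
      (-C.ell u y + (1 / (2 * R ^ 2)) / 2 * ∑ k, y k * y k) +
        ((n:ℝ) + 2) * Real.log (s - psi u y)) x) :
    ((hess u x).det)⁻¹ ≤ (4 * ((n:ℝ) + 2) * R ^ 2 / (s - psi u x)) ^ n := by
  have hd : (hess u x).det ≠ 0 := hpos.det_pos.ne'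
  set γ : ℝ := 1 / (2 * R ^ 2) with hγ
  have hell : C.Sm (C.ell u) x := C.sm_ell hu hd
  have hnell : C.Sm (fun y => -C.ell u y) x := hell.neg
  have hsq : ∀ k ∈ (Finset.univ : Finset (Fin n)),
      C.Sm (fun y : EuclideanSpace ℝ (Fin n) => y k * y k) x :=
    fun k _ => (C.sm_coord k x).mul (C.sm_coord k x)
  have hsum : C.Sm (fun y : EuclideanSpace ℝ (Fin n) => ∑ k, y k * y k) x :=
    ContDiffAt.sum hsq
  have hsu : C.Sm (fun y => s - psi u y) x := contDiffAt_const.sub (sm_psi hu)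
  have hlog : C.Sm (fun y => Real.log (s - psi u y)) x := hsu.log hs.ne'
  have hcs : C.Sm (fun y : EuclideanSpace ℝ (Fin n) => γ / 2 * ∑ k, y k * y k) x :=
    contDiffAt_const.mul hsum
  have h1 : C.Sm (fun y : EuclideanSpace ℝ (Fin n) => -C.ell u y + γ / 2 * ∑ k, y k * y k) x :=
    hnell.add hcs
  have h2 : C.Sm (fun y => ((n:ℝ) + 2) * Real.log (s - psi u y)) x := contDiffAt_const.mul hlog
  -- second order
  have hLo := Lo_nonpos hpos (h1.add h2) hmax
  have hLsu : C.Lo u (fun y => s - psi u y) x = - (n + ∑ k, x k * pd k (C.ell u) x) := by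
    rw [C.Lo_sub (f := fun _ => s) contDiffAt_const (sm_psi hu), C.Lo_const, Lo_psi hu hd]; ring
  have hgsu : C.gr (fun y => s - psi u y) x = - C.gr (psi u) x := by
    funext i
    simp only [C.gr_apply, Pi.neg_apply]
    rw [C.pd_sub i (differentiableAt_const s) (sm_psi hu).da, C.pd_const]; ring
  have hLnell : C.Lo u (fun y => -C.ell u y) x = - C.Lo u (C.ell u) x := by
    have := C.Lo_const_mul (u := u) (-1) hell
    simpa using this
  have hLsq : ∀ k ∈ (Finset.univ : Finset (Fin n)),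
      C.Lo u (fun y : EuclideanSpace ℝ (Fin n) => y k * y k) x = 2 * (hess u x)⁻¹ k k := by
    intro k _
    rw [C.Lo_mul hu (C.sm_coord k x) (C.sm_coord k x), C.Lo_coord, ip_gr_coord]
    have h3 : ∑ j, (hess u x)⁻¹ k j * C.gr (fun y : EuclideanSpace ℝ (Fin n) => y k) x j =
        (hess u x)⁻¹ k k := by
      simp only [C.gr_apply, C.pd_coord]
      simp
    rw [h3]; ring
  have hLo2 : C.Lo u (fun y : EuclideanSpace ℝ (Fin n) =>
      (-C.ell u y + γ / 2 * ∑ k, y k * y k) + ((n:ℝ) + 2) * Real.log (s - psi u y)) x =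
      - (((n:ℝ) + 1) / (n + 2) * C.ip u x (C.gr (C.ell u) x) (C.gr (C.ell u) x)) +
      γ * (∑ k, (hess u x)⁻¹ k k) +
      ((n:ℝ) + 2) * (- (n + ∑ k, x k * pd k (C.ell u) x) / (s - psi u x) -
        C.ip u x (C.gr (psi u) x) (C.gr (psi u) x) / (s - psi u x) ^ 2) := by
    rw [C.Lo_add h1 h2, C.Lo_add hnell hcs, C.Lo_const_mul _ hsum,
      C.Lo_const_mul _ hlog, Lo_sum _ hsq, Finset.sum_congr rfl hLsq, hLnell, ham,
      C.Lo_log hsu hs.ne', hLsu, hgsu, C.ip_neg_left, C.ip_neg_right, neg_neg,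
      ← Finset.mul_sum]
    ring
  rw [hLo2] at hLo
  -- first order
  have hgrad : ∀ i, - pd i (C.ell u) x + γ * x i
      - ((n:ℝ) + 2) * C.gr (psi u) x i / (s - psi u x) = 0 := by
    intro i
    have h0 := pd_eq_zero_of_isLocalMax hmax i
    rw [C.pd_add i h1.da h2.da, C.pd_add i hnell.da hcs.da, C.pd_neg i,
      C.pd_const_mul i _ hsum.da, C.pd_const_mul i _ hlog.da,
      C.pd_sum _ i (fun k hk => (hsq k hk).da),
      C.pd_comp i (Real.hasDerivAt_log hs.ne') hsu.da,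
      C.pd_sub i (differentiableAt_const s) (sm_psi hu).da, C.pd_const] at h0
    have h3 : ∀ k, pd i (fun y : EuclideanSpace ℝ (Fin n) => y k * y k) x =
        2 * (if i = k then x k else 0) := by
      intro k
      rw [C.pd_mul i (C.sm_coord k x).da (C.sm_coord k x).da, C.pd_coord]
      split_ifs <;> ring
    simp only [h3, ← Finset.mul_sum] at h0
    rw [Finset.sum_ite_eq, if_pos (Finset.mem_univ _)] at h0
    rw [← h0, C.gr_apply]; field_simp; ring
  have hgp := gr_psi hu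
  refine lower_algebra hn hpos (y := fun k => x k) (l := C.gr (C.ell u) x) hs hR ?_ ?_ ?_
  · refine le_of_eq_of_le ?_ hx
    simp [dotProduct, sq]
  · funext i
    have h3 := hgrad i
    rw [← hgp]
    simp only [Pi.sub_apply, Pi.smul_apply, smul_eq_mul]
    have h4 : ((n:ℝ) + 2) / (s - psi u x) * C.gr (psi u) x i =
      ((n:ℝ) + 2) * C.gr (psi u) x i / (s - psi u x) := by ring
    rw [h4, C.gr_apply (C.ell u)]
    linarith
  · rw [ip_eq_dot, ip_eq_dot, hgp, inv_mulVec_mulVec hpos] at hLo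
    have e1 : (fun k => x k) ⬝ᵥ C.gr (C.ell u) x = ∑ k, x k * pd k (C.ell u) x := rfl
    have e2 : ((hess u x)⁻¹).trace = ∑ k, (hess u x)⁻¹ k k := rfl
    rw [e1, e2]
    refine le_of_eq_of_le ?_ hLo
    rw [dotProduct_comm (hess u x *ᵥ _)]
    ring

end psi

end Vale.Agent.P252.H429
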