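import Mathlib
import Vale.Agent.P252.R.Spec
import Vale.Agent.P252.H429.DetBounds

/-! `Stmt_detUpper n` (for `2 ≤ n`) and `Stmt_detLower n` (for `1 ≤ n`) (helper429). -/

open scoped ContDiff Topology
open Filter Matrix

namespace Vale.Agent.P252.H429

open Vale.Agent.P252.R

variable {n : ℕ}

lemma continuousOn_of_sm {S Ω : Set (EuclideanSpace ℝ (Fin n))}
    {f : EuclideanSpace ℝ (Fin n) → ℝ} (h : ∀ x ∈ Ω, C.Sm f x) (hS : S ⊆ Ω) :
    ContinuousOn f S := fun x hx => (h x (hS hx)).continuousAt.continuousWithinAt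

/-- Upper bound of the determinant, explicit form. -/
theorem det_upper (hn : 2 ≤ n) {Ω : Set (En n)} {u : En n → ℝ} (hu : AMLoc Ω u)
    {s K : ℝ} (hK : 0 < K) (hcpt : IsCompact {x | x ∈ Ω ∧ u x ≤ s})
    (hgr : ∀ x ∈ Ω, u x ≤ s → ∑ i, pd i u x ^ 2 ≤ K ^ 2) {x0 : En n} (hx0 : x0 ∈ Ω)
    (hx0s : u x0 < s) :
    dt u x0 * (s - u x0) ^ n ≤ (6 * K ^ 2) ^ n * Real.exp (((n:ℝ) + 2) / 4) := by
  have hsm : ∀ x ∈ Ω, C.Sm u x := fun x hx => hu.sm.contDiffAt (hu.op.mem_nhds hx)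
  set γ : ℝ := ((n:ℝ) + 2) / (2 * K ^ 2) with hγ
  have hγ0 : 0 < γ := by positivity
  set S : Set (En n) := {x | x ∈ Ω ∧ u x ≤ s} with hS
  have hSΩ : S ⊆ Ω := fun x hx => hx.1
  set P : En n → ℝ := fun y => ∑ k, pd k u y * pd k u y with hP
  have hPsm : ∀ x ∈ Ω, C.Sm P x := fun x hx =>
    ContDiffAt.sum fun k _ => ((hsm x hx).pd k).mul ((hsm x hx).pd k)
  have hdsm : ∀ x ∈ Ω, C.Sm (dt u) x := fun x hx => C.sm_hess_det (hsm x hx)
  have hdpos : ∀ x ∈ Ω, 0 < dt u x := fun x hx => (hu.pos x hx).det_pos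
  obtain ⟨xm, hxm, hgm, hmax, hle⟩ := exists_max (C := S) hcpt
    (g := fun x => s - u x) (G := fun x => dt u x * Real.exp (γ / 2 * P x))
    (continuousOn_const.sub (continuousOn_of_sm hsm hSΩ))
    ((continuousOn_of_sm hdsm hSΩ).mul
      (Real.continuous_exp.comp_continuousOn (continuousOn_const.mul (continuousOn_of_sm hPsm hSΩ))))
    (fun x hx => mul_pos (hdpos x hx.1) (Real.exp_pos _)) (m := n) (by omega)
    (by
      intro x hx hgx
      rw [mem_interior_iff_mem_nhds]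
      filter_upwards [hu.op.mem_nhds hx.1, (hsm x hx.1).continuousAt.eventually
        (gt_mem_nhds (show u x < s by linarith))] with y h1 h2
      exact ⟨h1, h2.le⟩)
    (x0 := x0) ⟨hx0, hx0s.le⟩ (by simpa using hx0s)
  have hxmS : xm ∈ S := interior_subset hxm
  have hPm : P xm ≤ K ^ 2 := by
    have := hgr xm hxmS.1 hxmS.2
    refine le_of_eq_of_le ?_ this
    simp [hP, sq]
  have hmax2 : IsLocalMax (fun y => (C.ell u y + γ / 2 * ∑ k, pd k u y * pd k u y) +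
      n * Real.log (s - u y)) xm := by
    refine IsLocalMax.congr hmax ?_
    filter_upwards [hu.op.mem_nhds hxmS.1] with y hy
    rw [Real.log_mul (hdpos y hy).ne' (Real.exp_pos _).ne', Real.log_exp]
    rfl
  have hpt := upper_pointwise hn (hsm xm hxmS.1) (hu.pos xm hxmS.1) (hu.am xm hxmS.1)
    (s := s) (K := K) hgm hK (by refine le_of_eq_of_le ?_ hPm; simp [hP, sq]) hmax2
  have h5 : dt u xm * (s - u xm) ^ n ≤ (6 * K ^ 2) ^ n := by
    have h6 := mul_le_mul_of_nonneg_right hpt (pow_pos hgm n).le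
    rwa [← mul_pow, div_mul_cancel₀ _ hgm.ne'] at h6
  have hexp : Real.exp (γ / 2 * P xm) ≤ Real.exp (((n:ℝ) + 2) / 4) := by
    apply Real.exp_le_exp.2
    have h1 : γ / 2 * P xm ≤ γ / 2 * K ^ 2 := mul_le_mul_of_nonneg_left hPm (by positivity)
    have h2 : γ / 2 * K ^ 2 = ((n:ℝ) + 2) / 4 := by rw [hγ]; field_simp; ring
    linarith
  have hexp0 : 1 ≤ Real.exp (γ / 2 * P x0) := by
    apply Real.one_le_exp
    have : 0 ≤ P x0 := Finset.sum_nonneg fun k _ => mul_self_nonneg _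
    positivity
  have hs0 : 0 < s - u x0 := by linarith
  calc dt u x0 * (s - u x0) ^ n
      ≤ dt u x0 * Real.exp (γ / 2 * P x0) * (s - u x0) ^ n := by
        apply mul_le_mul_of_nonneg_right _ (pow_pos hs0 n).le
        exact le_mul_of_one_le_right (hdpos x0 hx0).le hexp0
    _ ≤ dt u xm * Real.exp (γ / 2 * P xm) * (s - u xm) ^ n := hle
    _ = dt u xm * (s - u xm) ^ n * Real.exp (γ / 2 * P xm) := by ring
    _ ≤ (6 * K ^ 2) ^ n * Real.exp (((n:ℝ) + 2) / 4) :=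
        mul_le_mul h5 hexp (Real.exp_pos _).le (by positivity)

/-- D1. -/
theorem detUpper (n : ℕ) (hn : 2 ≤ n) : Stmt_detUpper n := by
  intro s G hs
  set K : ℝ := Real.sqrt (n * G ^ 2 + 1) with hK
  have hK0 : 0 < K := Real.sqrt_pos.2 (by positivity)
  have hK2 : K ^ 2 = n * G ^ 2 + 1 := Real.sq_sqrt (by positivity)
  refine ⟨(6 * K ^ 2) ^ n * Real.exp (((n:ℝ) + 2) / 4) / s ^ n, by positivity, ?_⟩
  intro Ω u hu hcpt h0 hu0 hbd
  rw [le_div_iff₀ (pow_pos hs n)]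
  have h := det_upper hn hu hK0 hcpt (x0 := 0) ?_ h0 (by rw [hu0]; exact hs)
  · rwa [hu0, sub_zero] at h
  · intro x hx hxs
    have h1 := (hbd x hx hxs).2
    rw [hK2]
    calc ∑ i, pd i u x ^ 2 ≤ ∑ _i : Fin n, G ^ 2 := by
          refine Finset.sum_le_sum fun i _ => ?_
          have := h1 i
          rw [← sq_abs]
          exact pow_le_pow_left₀ (abs_nonneg _) this 2
      _ = n * G ^ 2 := by simp
      _ ≤ n * G ^ 2 + 1 := by linarith

lemma leg_eq_psi (u : En n → ℝ) (x : En n) : leg u x = psi u x := rfl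

/-- Lower bound of the determinant, explicit form. -/
theorem det_lower (hn : n ≠ 0) {Ω : Set (En n)} {u : En n → ℝ} (hu : AMLoc Ω u)
    {s R m : ℝ} (hR : 0 < R) (hcpt : IsCompact {x | x ∈ Ω ∧ leg u x ≤ s})
    (hx : ∀ x ∈ Ω, leg u x ≤ s → s - leg u x ≤ m ∧ ∑ i, x i ^ 2 ≤ R ^ 2) {x0 : En n}
    (hx0 : x0 ∈ Ω) (hx0s : leg u x0 < s) :
    (s - leg u x0) ^ (n + 2) ≤
      dt u x0 * ((4 * ((n:ℝ) + 2) * R ^ 2) ^ n * m ^ 2 * Real.exp (1 / 4)) := by
  have hsm : ∀ x ∈ Ω, C.Sm u x := fun x hx => hu.sm.contDiffAt (hu.op.mem_nhds hx)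
  have hpsm : ∀ x ∈ Ω, C.Sm (psi u) x := fun x hx => sm_psi (hsm x hx)
  set γ : ℝ := 1 / (2 * R ^ 2) with hγ
  have hγ0 : 0 < γ := by positivity
  set S : Set (En n) := {x | x ∈ Ω ∧ leg u x ≤ s} with hS
  have hSΩ : S ⊆ Ω := fun x hx => hx.1
  set P : En n → ℝ := fun y => ∑ k, y k * y k with hP
  have hPsm : ∀ x ∈ Ω, C.Sm P x := fun x hx =>
    ContDiffAt.sum fun k _ => (C.sm_coord k x).mul (C.sm_coord k x)
  have hdsm : ∀ x ∈ Ω, C.Sm (dt u) x := fun x hx => C.sm_hess_det (hsm x hx)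
  have hdpos : ∀ x ∈ Ω, 0 < dt u x := fun x hx => (hu.pos x hx).det_pos
  obtain ⟨xm, hxm, hgm, hmax, hle⟩ := exists_max (C := S) hcpt
    (g := fun x => s - psi u x) (G := fun x => (dt u x)⁻¹ * Real.exp (γ / 2 * P x))
    (continuousOn_const.sub (continuousOn_of_sm hpsm hSΩ))
    (((continuousOn_of_sm hdsm hSΩ).inv₀ (fun x hx => (hdpos x hx.1).ne')).mul
      (Real.continuous_exp.comp_continuousOn (continuousOn_const.mul (continuousOn_of_sm hPsm hSΩ))))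
    (fun x hx => mul_pos (inv_pos.2 (hdpos x hx.1)) (Real.exp_pos _)) (m := n + 2) (by omega)
    (by
      intro x hx hgx
      rw [mem_interior_iff_mem_nhds]
      filter_upwards [hu.op.mem_nhds hx.1, (hpsm x hx.1).continuousAt.eventually
        (gt_mem_nhds (show psi u x < s by linarith))] with y h1 h2
      exact ⟨h1, h2.le⟩)
    (x0 := x0) ⟨hx0, hx0s.le⟩ (sub_pos.2 hx0s)
  have hxmS : xm ∈ S := interior_subset hxm
  have hb := hx xm hxmS.1 hxmS.2
  have hPm : P xm ≤ R ^ 2 := by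
    refine le_of_eq_of_le ?_ hb.2
    simp [hP, sq]
  have hmax2 : IsLocalMax (fun y : En n => (-C.ell u y + γ / 2 * ∑ k, y k * y k) +
      ((n:ℝ) + 2) * Real.log (s - psi u y)) xm := by
    refine IsLocalMax.congr hmax ?_
    filter_upwards [hu.op.mem_nhds hxmS.1] with y hy
    rw [Real.log_mul (inv_ne_zero (hdpos y hy).ne') (Real.exp_pos _).ne', Real.log_exp,
      Real.log_inv]
    push_cast
    rfl
  have hpt := lower_pointwise hn (hsm xm hxmS.1) (hu.pos xm hxmS.1) (hu.am xm hxmS.1)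
    (s := s) (R := R) hgm hR (by refine le_of_eq_of_le ?_ hPm; simp [hP, sq]) hmax2
  have hgm' : 0 < s - psi u xm := hgm
  have h5 : (dt u xm)⁻¹ * (s - psi u xm) ^ (n + 2) ≤
      (4 * ((n:ℝ) + 2) * R ^ 2) ^ n * m ^ 2 := by
    have h6 := mul_le_mul_of_nonneg_right hpt (pow_pos hgm' n).le
    rw [← mul_pow, div_mul_cancel₀ _ hgm'.ne'] at h6
    have h7 : (s - psi u xm) ^ 2 ≤ m ^ 2 := pow_le_pow_left₀ hgm'.le hb.1 2
    calc (dt u xm)⁻¹ * (s - psi u xm) ^ (n + 2)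
        = (dt u xm)⁻¹ * (s - psi u xm) ^ n * (s - psi u xm) ^ 2 := by rw [pow_add]; ring
      _ ≤ (4 * ((n:ℝ) + 2) * R ^ 2) ^ n * m ^ 2 :=
          mul_le_mul h6 h7 (by positivity) (by positivity)
  have hexp : Real.exp (γ / 2 * P xm) ≤ Real.exp (1 / 4) := by
    apply Real.exp_le_exp.2
    have h1 : γ / 2 * P xm ≤ γ / 2 * R ^ 2 := mul_le_mul_of_nonneg_left hPm (by positivity)
    have h2 : γ / 2 * R ^ 2 = 1 / 4 := by rw [hγ]; field_simp; norm_num
    linarith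
  have hexp0 : 1 ≤ Real.exp (γ / 2 * P x0) := by
    apply Real.one_le_exp
    have : 0 ≤ P x0 := Finset.sum_nonneg fun k _ => mul_self_nonneg _
    positivity
  have hs0 : 0 < s - psi u x0 := by have := leg_eq_psi u x0; linarith
  have hinv : 0 < (dt u x0)⁻¹ := inv_pos.2 (hdpos x0 hx0)
  have h8 : (dt u x0)⁻¹ * (s - psi u x0) ^ (n + 2) ≤
      (4 * ((n:ℝ) + 2) * R ^ 2) ^ n * m ^ 2 * Real.exp (1 / 4) := by
    calc (dt u x0)⁻¹ * (s - psi u x0) ^ (n + 2)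
        ≤ (dt u x0)⁻¹ * Real.exp (γ / 2 * P x0) * (s - psi u x0) ^ (n + 2) := by
          apply mul_le_mul_of_nonneg_right _ (pow_pos hs0 _).le
          exact le_mul_of_one_le_right hinv.le hexp0
      _ ≤ (dt u xm)⁻¹ * Real.exp (γ / 2 * P xm) * (s - psi u xm) ^ (n + 2) := hle
      _ = (dt u xm)⁻¹ * (s - psi u xm) ^ (n + 2) * Real.exp (γ / 2 * P xm) := by ring
      _ ≤ (4 * ((n:ℝ) + 2) * R ^ 2) ^ n * m ^ 2 * Real.exp (1 / 4) :=
          mul_le_mul h5 hexp (Real.exp_pos _).le (by positivity)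
  rw [leg_eq_psi]
  rwa [inv_mul_le_iff₀ (hdpos x0 hx0)] at h8

/-- D2. -/
theorem detLower (n : ℕ) (hn : 1 ≤ n) : Stmt_detLower n := by
  intro s G hs
  set R : ℝ := Real.sqrt (n * G ^ 2 + 1) with hR
  have hR0 : 0 < R := Real.sqrt_pos.2 (by positivity)
  have hR2 : R ^ 2 = n * G ^ 2 + 1 := Real.sq_sqrt (by positivity)
  have hn0 : (0:ℝ) < n := by exact_mod_cast hn
  set A : ℝ := (4 * ((n:ℝ) + 2) * R ^ 2) ^ n * s ^ 2 * Real.exp (1 / 4) with hA
  have hA0 : 0 < A := by positivity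
  refine ⟨s ^ (n + 2) / A, by positivity, ?_⟩
  intro Ω u hu hcpt h0 hu0 hbd
  rw [div_le_iff₀ hA0]
  have h := det_lower (by omega) hu (m := s) hR0 hcpt (x0 := 0) ?_ h0 (by rw [hu0]; exact hs)
  · rwa [hu0, sub_zero] at h
  · intro x hx hxs
    have h1 := hbd x hx hxs
    refine ⟨by linarith [h1.1], ?_⟩
    rw [hR2]
    calc ∑ i, x i ^ 2 ≤ ∑ _i : Fin n, G ^ 2 := by
          refine Finset.sum_le_sum fun i _ => ?_
          have := h1.2 i
          rw [← sq_abs]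
          exact pow_le_pow_left₀ (abs_nonneg _) this 2
      _ = n * G ^ 2 := by simp
      _ ≤ n * G ^ 2 + 1 := by linarith

end Vale.Agent.P252.H429
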